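import Vale.Agent.P207.H391.QV.Mix

/-!
P207, all dimensions, strictly quarter pinched (`b < 2a`), row ST8': if the tensor `P1` is parallel
along the stable leaves of all frames, then `∂_z C v u` is linear in `u` (the flipped statement), and
`der`, `par` follow.
-/

set_option maxSynthPendingDepth 3

open Set Filter Topology Metric
open scoped ContDiff

noncomputable section

namespace Vale.Agent.P207.H267.QV

/-- the flip `v ↦ -v` exchanges the two variables of the four point function -/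
structure FlipD (V E : Type*) [NormedAddCommGroup E] [NormedSpace ℝ E] extends BaseD V E E where
  flip : V → V
  flip_flip : ∀ v, flip (flip v) = v
  β_flip : ∀ v z u, ‖z‖ < r → ‖u‖ < r → β (flip v) (u, z) = β v (z, u)

namespace FlipD

variable {V E : Type*} [NormedAddCommGroup E] [NormedSpace ℝ E] (D : FlipD V E)

theorem swap_mem {p : E × E} : p.swap ∈ ball (0 : E × E) D.r ↔ p ∈ ball (0 : E × E) D.r := by
  rw [BetaD.mem_iff, BetaD.mem_iff]
  exact and_comm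

/-- the flip exchanges the two partial derivatives -/
theorem Ph_flip {v : V} {p : E × E} (hp : p ∈ ball (0 : E × E) D.r) (w : E) :
    D.Ph (D.flip v) p.swap w = D.Ps v p w := by
  have hp' : p.swap ∈ ball (0 : E × E) D.r := D.swap_mem.mpr hp
  set sw : E × E →L[ℝ] E × E := (ContinuousLinearMap.snd ℝ E E).prod
    (ContinuousLinearMap.fst ℝ E E) with hsw
  have h1 : HasFDerivAt (D.β (D.flip v)) (fderiv ℝ (D.β (D.flip v)) p.swap) (sw p) :=
    ((D.at_smooth (v := D.flip v) hp').differentiableAt (by simp)).hasFDerivAt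
  have h2 : HasFDerivAt (fun q => D.β (D.flip v) (sw q))
      ((fderiv ℝ (D.β (D.flip v)) p.swap) ∘L sw) p := h1.comp p sw.hasFDerivAt
  have h3 : D.β v =ᶠ[𝓝 p] fun q => D.β (D.flip v) (sw q) := by
    filter_upwards [isOpen_ball.mem_nhds hp] with q hq
    have h4 := BetaD.mem_iff.mp hq
    exact (D.β_flip v q.1 q.2 h4.1 h4.2).symm
  have h4 := (h2.congr_of_eventuallyEq h3).fderiv
  show fderiv ℝ (D.β (D.flip v)) p.swap (w, 0) = fderiv ℝ (D.β v) p (0, w)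
  rw [h4]
  rfl

/-- the two derivatives of the holonomies are dual to each other -/
theorem D1_flip {v : V} {p : E × E} (hp : p ∈ ball (0 : E × E) D.r) (w α : E) :
    D.D1 (D.flip v) p.swap α w = D.D1 v p w α := by
  have hp' : p.swap ∈ ball (0 : E × E) D.r := D.swap_mem.mpr hp
  have e1 : D.D1 v p w α = fderiv ℝ (D.Ps v) p (α, 0) w := (D.symm_mixed hp α w).symm
  rw [e1]
  set sw : E × E →L[ℝ] E × E := (ContinuousLinearMap.snd ℝ E E).prod
    (ContinuousLinearMap.fst ℝ E E) with hsw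
  have h1 : HasFDerivAt (D.Ph (D.flip v)) (fderiv ℝ (D.Ph (D.flip v)) p.swap) (sw p) :=
    D.Ph_diff (v := D.flip v) hp'
  have h2 : HasFDerivAt (fun q => D.Ph (D.flip v) (sw q))
      ((fderiv ℝ (D.Ph (D.flip v)) p.swap) ∘L sw) p := h1.comp p sw.hasFDerivAt
  have h3 : D.Ps v =ᶠ[𝓝 p] fun q => D.Ph (D.flip v) (sw q) := by
    filter_upwards [isOpen_ball.mem_nhds hp] with q hq
    ext x
    exact (D.Ph_flip hq x).symm
  have h4 := (h2.congr_of_eventuallyEq h3).fderiv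
  rw [h4]
  rfl

theorem C_flip {v : V} {z u : E} (hz : ‖z‖ < D.r) (hu : ‖u‖ < D.r) (w α : E) :
    D.K (D.flip v) (D.C (D.flip v) z u α) w = D.K v (D.C v u z w) α := by
  have h1 := D.D1_flip (v := v) (p := (z, u)) (D.mem_mk hz hu) w α
  have e1 : D.D1 (D.flip v) (u, z) α = D.K (D.flip v) (D.C (D.flip v) z u α) :=
    D.D1_eq (D.flip v) (u, z) α
  have e2 : D.D1 v (z, u) w = D.K v (D.C v u z w) := D.D1_eq v (z, u) w
  rw [← e1, ← e2]
  exact h1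

/-- the `z`-derivative of `C_flip` at `z = 0` -/
theorem DZ_flip {v : V} {u : E} (hu : ‖u‖ < D.r) (α₁ w α : E) :
    D.K (D.flip v) (D.DU (D.flip v) (u, 0) α₁ α) w = D.K v (D.DZ v (0, u) α₁ w) α := by
  have h0 : ‖(0 : E)‖ < D.r := by simpa using D.r_pos
  -- left side
  set S1 : (E →L[ℝ] E) →L[ℝ] ℝ := (ContinuousLinearMap.apply ℝ ℝ w) ∘L
    (D.K (D.flip v) : E →L[ℝ] E →L[ℝ] ℝ) ∘L (ContinuousLinearMap.apply ℝ E α) with hS1
  set S2 : (E →L[ℝ] E) →L[ℝ] ℝ := (ContinuousLinearMap.apply ℝ ℝ α) ∘L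
    (D.K v : E →L[ℝ] E →L[ℝ] ℝ) ∘L (ContinuousLinearMap.apply ℝ E w) with hS2
  have d1 : HasFDerivAt (fun z => S1 (D.C (D.flip v) z u)) (S1 ∘L D.DU (D.flip v) (u, 0)) 0 :=
    S1.hasFDerivAt.comp (0 : E) (D.C_deriv_u (v := D.flip v) hu h0)
  have d2 : HasFDerivAt (fun z => S2 (D.C v u z)) (S2 ∘L D.DZ v (0, u)) 0 :=
    S2.hasFDerivAt.comp (0 : E) (D.C_deriv_z (v := v) h0 hu)
  have e : (fun z => S1 (D.C (D.flip v) z u)) =ᶠ[𝓝 0] fun z => S2 (D.C v u z) := by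
    filter_upwards [ball_mem_nhds (0 : E) D.r_pos] with z hz
    exact D.C_flip (by simpa using hz) hu w α
  have h := d1.unique (d2.congr_of_eventuallyEq e)
  exact congrArg (fun A : E →L[ℝ] ℝ => A α₁) h

/-- `PAR`: the tensor is parallel along the stable leaves -/
def Par : Prop := ∀ v z, ‖z‖ < D.ρ → tp (D.κ v z) (D.κ' v z) (D.P1 (D.mv v z)) = D.P1 v

/-- the derivative of the base change, at `0` in the second variable -/
theorem DU_base {f : V} {u₁ : E} (hu₁ : ‖u₁‖ < D.ρ) : ∀ᶠ u in 𝓝 u₁, ∀ α₁,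
    D.DU f (u, 0) α₁ = cjL (D.κ f u₁).symm (D.DU (D.mv f u₁) (D.κ' f u₁ (u - u₁), 0)
      (D.κ f u₁ α₁)) + D.DU f (u₁, 0) α₁ := by
  have h0 : ‖(0 : E)‖ < D.r := by simpa using D.r_pos
  have hsm : ∀ᶠ u in 𝓝 u₁, ‖u‖ < D.r :=
    continuous_norm.continuousAt.eventually_lt continuousAt_const (D.lt_r hu₁)
  have hsm2 : ∀ᶠ u in 𝓝 u₁, ‖D.κ' f u₁ (u - u₁)‖ < D.r := by
    have hc : Continuous fun z => ‖D.κ' f u₁ (z - u₁)‖ :=
      ((D.κ' f u₁).continuous.comp (continuous_id.sub continuous_const)).norm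
    exact hc.continuousAt.eventually_lt continuousAt_const (by simpa using D.r_pos)
  filter_upwards [D.C_base_unif (v := f) hu₁, hsm, hsm2] with u hu hur hur2 α₁
  have hg0 := D.g_zero f u₁ hu₁
  have e1 : HasFDerivAt (fun z => D.C f z u) (D.DU f (u, 0)) 0 := D.C_deriv_u hur h0
  have e2 : HasFDerivAt (fun z => D.C (D.mv f u₁) z (D.κ' f u₁ (u - u₁)))
      (D.DU (D.mv f u₁) (D.κ' f u₁ (u - u₁), 0)) (D.g f u₁ 0) := by
    rw [hg0]; exact D.C_deriv_u hur2 h0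
  have e3 : HasFDerivAt
      (fun z => cjL (D.κ f u₁).symm (D.C (D.mv f u₁) (D.g f u₁ z) (D.κ' f u₁ (u - u₁))))
      (cjL (D.κ f u₁).symm ∘L (D.DU (D.mv f u₁) (D.κ' f u₁ (u - u₁), 0) ∘L
        (D.κ f u₁ : E →L[ℝ] E))) 0 :=
    (cjL (D.κ f u₁).symm).hasFDerivAt.comp (0 : E)
      (HasFDerivAt.comp (g := fun z => D.C (D.mv f u₁) z (D.κ' f u₁ (u - u₁))) (0 : E) e2
        (D.g_deriv' hu₁))
  have e4 := e3.clm_comp (D.C_deriv_u (v := f) (D.lt_r hu₁) h0)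
  have e5 : (fun z => D.C f z u) =ᶠ[𝓝 0] fun z =>
      (cjL (D.κ f u₁).symm (D.C (D.mv f u₁) (D.g f u₁ z) (D.κ' f u₁ (u - u₁)))).comp
        (D.C f z u₁) := by
    filter_upwards [ball_mem_nhds (0 : E) D.ρ_pos] with z hz
    rw [cjL_apply]
    exact hu z (by simpa using hz)
  have e6 := e1.unique (e4.congr_of_eventuallyEq e5)
  have e8 : cjL (D.κ f u₁).symm (D.C (D.mv f u₁) (D.g f u₁ 0) (D.κ' f u₁ (u - u₁))) = 1 := by
    rw [hg0, cjL_apply]
    have : D.C (D.mv f u₁) 0 (D.κ' f u₁ (u - u₁)) = 1 := D.cc_right _ _ hur2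
    rw [this]
    ext x; simp [cj]
  have e9 : D.C f 0 u₁ = 1 := D.cc_right f u₁ (D.lt_r hu₁)
  rw [e6, e8, e9]
  ext1 x
  simp [add_comm]

/-- under `PAR` the derivative of `DU f (u, 0)` is constant -/
theorem DU_deriv (hP : D.Par) {f : V} {u₁ : E} (hu₁ : ‖u₁‖ < D.ρ) (α₁ : E) :
    HasFDerivAt (fun u => D.DU f (u, 0) α₁) (D.P1 f α₁) u₁ := by
  have h0 : ‖(0 : E)‖ < D.r := by simpa using D.r_pos
  set T : (E →L[ℝ] E →L[ℝ] E) →L[ℝ] (E →L[ℝ] E) :=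
    (cjL (D.κ f u₁).symm) ∘L (ContinuousLinearMap.apply ℝ (E →L[ℝ] E) (D.κ f u₁ α₁)) with hT
  have d1 : HasFDerivAt (fun w => D.κ' f u₁ (w - u₁)) (D.κ' f u₁ : E →L[ℝ] E) u₁ :=
    (D.κ' f u₁ : E →L[ℝ] E).hasFDerivAt.comp u₁ ((hasFDerivAt_id u₁).sub_const u₁)
  have d2 : HasFDerivAt (fun z => D.DU (D.mv f u₁) (z, 0)) (D.DUZ (D.mv f u₁) (0, 0))
      (D.κ' f u₁ (u₁ - u₁)) := by
    rw [sub_self, map_zero]; exact D.DU_deriv_z h0 h0
  have d3 : HasFDerivAt (fun u => T (D.DU (D.mv f u₁) (D.κ' f u₁ (u - u₁), 0)) +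
      D.DU f (u₁, 0) α₁) (T ∘L (D.DUZ (D.mv f u₁) (0, 0) ∘L (D.κ' f u₁ : E →L[ℝ] E))) u₁ :=
    (T.hasFDerivAt.comp u₁
      (HasFDerivAt.comp (g := fun z => D.DU (D.mv f u₁) (z, 0)) u₁ d2 d1)).add_const _
  have d4 : (fun u => D.DU f (u, 0) α₁) =ᶠ[𝓝 u₁]
      fun u => T (D.DU (D.mv f u₁) (D.κ' f u₁ (u - u₁), 0)) + D.DU f (u₁, 0) α₁ := by
    filter_upwards [D.DU_base hu₁] with u hu
    exact hu α₁
  have e : T ∘L (D.DUZ (D.mv f u₁) (0, 0) ∘L (D.κ' f u₁ : E →L[ℝ] E)) = D.P1 f α₁ := by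
    ext1 w
    show cjL (D.κ f u₁).symm (D.DUZ (D.mv f u₁) (0, 0) (D.κ' f u₁ w) (D.κ f u₁ α₁)) = _
    rw [D.symm2 (v := D.mv f u₁) (D.mem_mk h0 h0), cjL_apply, ← hP f u₁ hu₁, tp_apply]
    rfl
  rw [← e]
  exact d3.congr_of_eventuallyEq d4

theorem DU_eq (hP : D.Par) {f : V} {u : E} (hu : ‖u‖ < D.ρ) (α₁ : E) :
    D.DU f (u, 0) α₁ = D.P1 f α₁ u := by
  have h0 : ‖(0 : E)‖ < D.r := by simpa using D.r_pos
  have h1 := (convex_ball (0 : E) D.ρ).norm_image_sub_le_of_norm_hasFDerivWithin_le (𝕜 := ℝ)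
    (f := fun u => D.DU f (u, 0) α₁ - D.P1 f α₁ u) (f' := fun _ => 0) (C := 0) (x := 0) (y := u)
    (fun x hx => by
      have h2 := (D.DU_deriv hP (f := f) (u₁ := x) (by simpa using hx) α₁).sub
        (D.P1 f α₁).hasFDerivAt
      rw [sub_self] at h2
      exact h2.hasFDerivWithinAt)
    (fun x hx => by simp) (mem_ball_self D.ρ_pos) (by simpa using hu)
  have h3 : D.DU f (0, 0) = 0 := D.DU_zero h0
  simp only [h3, zero_mul, norm_le_zero_iff, map_zero, zero_apply, sub_zero] at h1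
  exact sub_eq_zero.mp h1

/-- **the `z`-derivative of `C` is linear in `u`** -/
theorem DZ_eq (hP : D.Par) {v : V} {u : E} (hu : ‖u‖ < D.ρ) : D.DZ v (0, u) = D.P1 v u := by
  have h0 : ‖(0 : E)‖ < D.r := by simpa using D.r_pos
  ext1 α₁
  ext1 w
  -- the linear map
  set Λ : E →L[ℝ] E := ((D.K v).symm : (E →L[ℝ] ℝ) →L[ℝ] E) ∘L
    (ContinuousLinearMap.compL ℝ E E ℝ
      ((D.K (D.flip v) : E →L[ℝ] E →L[ℝ] ℝ).flip w)) ∘L (D.P1 (D.flip v) α₁) with hΛ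
  have key : ∀ u, ‖u‖ < D.ρ → D.DZ v (0, u) α₁ w = Λ u := by
    intro u hu
    apply (D.K v).injective
    have e1 : D.K v (Λ u) = ((D.K (D.flip v) : E →L[ℝ] E →L[ℝ] ℝ).flip w).comp
        (D.P1 (D.flip v) α₁ u) := by
      rw [hΛ]
      exact (D.K v).apply_symm_apply _
    rw [e1]
    ext1 α
    rw [← D.DZ_flip (D.lt_r hu) α₁ w α, D.DU_eq hP hu]
    rfl
  have d1 : HasFDerivAt (fun u => D.DZ v (0, u) α₁ w)
      ((ContinuousLinearMap.apply ℝ E w) ∘L (ContinuousLinearMap.apply ℝ (E →L[ℝ] E) α₁) ∘L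
        D.P1 v) 0 :=
    ((ContinuousLinearMap.apply ℝ E w) ∘L
      (ContinuousLinearMap.apply ℝ (E →L[ℝ] E) α₁)).hasFDerivAt.comp (0 : E)
      (D.DZ_deriv_u (v := v) h0 h0)
  have d2 : HasFDerivAt (fun u => D.DZ v (0, u) α₁ w) Λ 0 := by
    refine Λ.hasFDerivAt.congr_of_eventuallyEq ?_
    filter_upwards [ball_mem_nhds (0 : E) D.ρ_pos] with x hx
    exact key x (by simpa using hx)
  rw [key u hu, ← d1.unique d2]
  rfl

/-- the cocycle with the smaller radius -/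
def S' : Cocycle V E E := { D.toCocycle with r := D.ρ, r_pos := D.ρ_pos }

theorem S'_equi : D.S'.Equi D.C := by
  intro v u z hu hz hz'
  exact D.C_equi v u z (D.lt_r hu) (D.lt_r hz) (D.lt_r hz')

theorem P1_norm (v : V) : ‖D.P1 v‖ ≤ D.A 2 := by
  have h0 : ‖(0 : E)‖ < D.r := by simpa using D.r_pos
  have hA := D.A_nonneg v 2
  refine ContinuousLinearMap.opNorm_le_bound _ hA fun u => ?_
  refine ContinuousLinearMap.opNorm_le_bound _ (by positivity) fun α => ?_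
  rw [BetaD.P1, D.DZU_eq (D.mem_mk h0 h0)]
  refine (ContinuousLinearMap.le_opNorm₂ _ _ _).trans ?_
  have e1 : ‖((0 : E), u)‖ = ‖u‖ := by simp [Prod.norm_def]
  have e2 : ‖(α, (0 : E))‖ = ‖α‖ := by simp [Prod.norm_def]
  rw [e1, e2]
  have h1 : ‖fderiv ℝ (fderiv ℝ (D.cc v)) (0, 0)‖ ≤ D.A 2 := by
    have h2 := D.cc_bound (v := v) 2 (D.mem_mk h0 h0)
    rw [← norm_iteratedFDeriv_fderiv, norm_iteratedFDeriv_one] at h2
    exact h2
  gcongr

/-- **The output of row ST8'**: everything of `BaseD.exists_P`, from `PAR`, with `Λ λ² < 1`. -/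
theorem exists_P (hPar : D.Par) : ∃ P : V → E →L[ℝ] E →L[ℝ] E →L[ℝ] E,
    (∀ v, ‖P v‖ ≤ D.A 2) ∧
    (∀ v u u₁ α, P v u u₁ α = P v u₁ u α) ∧
    (∀ v u, HasFDerivAt (fun z => (D.κ v z).symm (D.g v z u)) ((1 / 2 : ℝ) • P v u u) 0) ∧
    (∀ v z, ‖z‖ < D.ρ → ∀ u u₁ α, P (D.mv v z) (D.κ v z u) (D.κ v z u₁) (D.κ' v z α) =
      D.κ v z (P v u u₁ α)) ∧
    (∀ v z u, ‖z‖ < D.ρ → ‖u‖ < D.ρ →
      ‖(D.κ v z).symm (D.g v z u) - u - (1 / 2 : ℝ) • P v u u z‖ ≤ D.A 2 * ‖z‖ ^ 2 * ‖u‖) := by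
  set P := D.P1 with hPdef
  have h0 : ‖(0 : E)‖ < D.r := by simpa using D.r_pos
  have hP' : ∀ v u, ‖u‖ < D.S'.r → HasFDerivAt (D.C v u) (P v u) 0 := fun v u hu => by
    rw [hPdef, ← D.DZ_eq hPar hu]
    exact D.C_deriv_z h0 (D.lt_r hu)
  have hCexp : ∀ v u z, ‖u‖ < D.S'.r → ‖z‖ < D.S'.r →
      ‖D.C v u z - 1 - P v u z‖ ≤ D.A 2 * ‖z‖ ^ 2 := by
    intro v u z hu hz
    refine Cocycle.C_bound (S := D.S') (C := D.C) (M₃ := D.A 2) hP' ?_ ?_ ?_ v u z hu hz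
    · intro v u z hu hz
      exact (D.C_diff (D.lt_r hz) (D.lt_r hu)).differentiableAt
    · intro v u z hu hz
      have := D.C_fderiv_lip (v := v) (z := z) (z' := 0) (u := u) (D.lt_r hz) h0 (D.lt_r hu)
      rwa [sub_zero] at this
    · intro v u hu
      exact D.cc_left v u (D.lt_r hu)
  have h00 : ∀ v z, ‖z‖ < D.S'.r → (D.κ v z).symm (D.g v z 0) = 0 := fun v z hz => by
    rw [D.g_zero v z hz, map_zero]
  have hd : ∀ v z u, ‖z‖ < D.S'.r → ‖u‖ < D.S'.r →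
      HasFDerivAt (fun u => (D.κ v z).symm (D.g v z u)) (D.C v u z) u := fun v z u hz hu =>
    D.h_deriv_u hz hu
  have hdiag : ∀ v u α, BaseD.sym (P v) u u α = P v u α u := fun v u α => by
    rw [BaseD.sym_apply, ← two_smul ℝ (P v u α u), smul_smul]; norm_num
  refine ⟨fun v => BaseD.sym (P v), fun v => (BaseD.sym_norm _).trans (D.P1_norm v),
    fun v u u₁ α => ?_, fun v u => ?_, fun v z hz u u₁ α => ?_, fun v z u hz hu => ?_⟩
  · rw [BaseD.sym_apply, BaseD.sym_apply, add_comm]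
  · have h1 := Cocycle.h_deriv (S := D.S') (C := D.C) (M₃ := D.A 2) (P := P) D.S'_equi hP'
      hCexp (h := fun v z u => (D.κ v z).symm (D.g v z u)) h00 hd D.flow_g v u
    have e : (1 / 2 : ℝ) • BaseD.sym (P v) u u = (2 : ℝ)⁻¹ • (P v u).flip u := by
      ext α
      rw [smul_apply, hdiag]
      simp
    rw [e]
    exact h1
  · have hpar : ∀ u u₁ : E, P (D.mv v z) (D.κ v z u) (D.κ' v z α) (D.κ v z u₁) =
        D.κ v z (P v u α u₁) := by
      intro u u₁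
      have h1 := hPar v z hz
      have h2 : P v u α u₁ = (D.κ v z).symm
          (P (D.mv v z) (D.κ v z u) (D.κ' v z α) (D.κ v z u₁)) := by
        rw [hPdef, ← h1, tp_apply]
        rfl
      rw [h2, ContinuousLinearEquiv.apply_symm_apply]
    rw [BaseD.sym_apply, BaseD.sym_apply, hpar, hpar, ← map_add, ← map_smul]
  · have h1 := Cocycle.h_bound (S := D.S') (C := D.C) (M₃ := D.A 2) (P := P)
      hCexp (h := fun v z u => (D.κ v z).symm (D.g v z u)) h00 hd v z u hz hu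
    rw [hdiag, one_div]
    exact h1

end FlipD

end Vale.Agent.P207.H267.QV
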