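import Vale.Agent.P207.H267.BetaR

/-!
P207, all dimensions, strictly quarter pinched (`b < 2a`), row ST8': the package `H267/{Sep, Beta,
BetaP, BetaQ, BetaR}` with a weight in every point: `Λ(v) λ(v)² ≤ θ < 1`.
-/

set_option maxSynthPendingDepth 3

open Set Filter Topology Metric
open scoped ContDiff

namespace Vale.Agent.P207.H267.QV

section Sep

variable {V E E' : Type*} [NormedAddCommGroup E] [NormedSpace ℝ E] [NormedAddCommGroup E']
  [NormedSpace ℝ E']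

/-- Data of row SEP: `ψ v` is the point one unit of time before `v`, `L v` and `L' v` are the
derivatives of the flow from `ψ v` to `v` on the unstable and on the stable space. -/
structure Cocycle (V E E' : Type*) [NormedAddCommGroup E] [NormedSpace ℝ E]
    [NormedAddCommGroup E'] [NormedSpace ℝ E'] where
  ψ : V → V
  L : V → E ≃L[ℝ] E
  L' : V → E' ≃L[ℝ] E'
  lam : ℝ
  Lam : ℝ
  lam_pos : 0 < lam
  one_lt_Lam : 1 < Lam
  norm_L : ∀ v, ‖(L v : E →L[ℝ] E)‖ ≤ Lam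
  norm_L_symm : ∀ v, ‖((L v).symm : E →L[ℝ] E)‖ ≤ lam
  norm_L' : ∀ v, ‖(L' v : E' →L[ℝ] E')‖ ≤ lam
  norm_L'_symm : ∀ v, ‖((L' v).symm : E' →L[ℝ] E')‖ ≤ Lam
  lam_lt_one : lam < 1
  θ : ℝ
  θ_nonneg : 0 ≤ θ
  θ_lt_one : θ < 1
  weight : ∀ v, ‖((L' v).symm : E' →L[ℝ] E')‖ * ‖((L v).symm : E →L[ℝ] E)‖ ^ 2 ≤ θ
  weight' : ∀ v, ‖(L v : E →L[ℝ] E)‖ * ‖(L' v : E' →L[ℝ] E')‖ ^ 2 ≤ θ
  r : ℝ
  r_pos : 0 < r

namespace Cocycle

variable (S : Cocycle V E E') (C : V → E → E' → E →L[ℝ] E)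

/-- one step of the zoom -/
def Equi : Prop := ∀ v u z, ‖u‖ < S.r → ‖z‖ < S.r → ‖(S.L' v).symm z‖ < S.r →
  C v u z = cj (S.L v) (C (S.ψ v) ((S.L v).symm u) ((S.L' v).symm z))

variable {S C}

theorem symm_lt (S : Cocycle V E E') (v : V) {u : E} (hu : ‖u‖ < S.r) : ‖(S.L v).symm u‖ < S.r := by
  have h1 : ‖(S.L v).symm u‖ ≤ ‖((S.L v).symm : E →L[ℝ] E)‖ * ‖u‖ :=
    ((S.L v).symm : E →L[ℝ] E).le_opNorm u
  have h2 : ‖((S.L v).symm : E →L[ℝ] E)‖ * ‖u‖ ≤ S.lam * ‖u‖ :=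
    mul_le_mul_of_nonneg_right (S.norm_L_symm v) (norm_nonneg _)
  have h3 : S.lam * ‖u‖ ≤ 1 * ‖u‖ := mul_le_mul_of_nonneg_right S.lam_lt_one.le (norm_nonneg _)
  linarith

/-- equivariance of `P` -/
theorem P_equi (heq : S.Equi C) {P : V → E →L[ℝ] E' →L[ℝ] E →L[ℝ] E}
    (hP : ∀ v u, ‖u‖ < S.r → HasFDerivAt (C v u) (P v u) 0) (v : V) (u : E) (α : E') :
    P v u α = cj (S.L v) (P (S.ψ v) ((S.L v).symm u) ((S.L' v).symm α)) := by
  -- it suffices to treat small `u`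
  have small : ∀ u : E, ‖u‖ < S.r → ∀ α : E',
      P v u α = cj (S.L v) (P (S.ψ v) ((S.L v).symm u) ((S.L' v).symm α)) := by
    intro u hu α
    have h1 : HasFDerivAt (C v u) (P v u) 0 := hP v u hu
    set cjL : (E →L[ℝ] E) →L[ℝ] (E →L[ℝ] E) :=
      (ContinuousLinearMap.compL ℝ E E E (S.L v : E →L[ℝ] E)) ∘L
        ((ContinuousLinearMap.compL ℝ E E E).flip ((S.L v).symm : E →L[ℝ] E)) with hcjL
    have hcj : ∀ T, cjL T = cj (S.L v) T := by
      intro T; ext w; simp [hcjL, cj]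
    have h2 : HasFDerivAt (C (S.ψ v) ((S.L v).symm u)) (P (S.ψ v) ((S.L v).symm u))
        ((S.L' v).symm (0 : E')) := by
      rw [map_zero]; exact hP _ _ (S.symm_lt v hu)
    have h3 : HasFDerivAt (fun z => cjL (C (S.ψ v) ((S.L v).symm u) ((S.L' v).symm z)))
        (cjL ∘L (P (S.ψ v) ((S.L v).symm u) ∘L ((S.L' v).symm : E' →L[ℝ] E'))) 0 :=
      cjL.hasFDerivAt.comp (0 : E')
        (h2.comp (0 : E') ((S.L' v).symm : E' →L[ℝ] E').hasFDerivAt)
    have h4 : C v u =ᶠ[𝓝 0] fun z => cjL (C (S.ψ v) ((S.L v).symm u) ((S.L' v).symm z)) := by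
      have e1 : ∀ᶠ z : E' in 𝓝 0, ‖z‖ < S.r := by
        filter_upwards [ball_mem_nhds (0 : E') S.r_pos] with z hz using by simpa using hz
      have e2 : ∀ᶠ z : E' in 𝓝 0, ‖(S.L' v).symm z‖ < S.r := by
        have : Tendsto (fun z : E' => ‖(S.L' v).symm z‖) (𝓝 0) (𝓝 0) := by
          have := ((S.L' v).symm.continuous.norm).tendsto (0 : E')
          simpa using this
        exact this.eventually_lt_const S.r_pos
      filter_upwards [e1, e2] with z hz1 hz2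
      rw [hcj]
      exact heq v u z hu hz1 hz2
    have h5 := h1.unique (h3.congr_of_eventuallyEq h4)
    have h6 := congrArg (fun T : E' →L[ℝ] E →L[ℝ] E => T α) h5
    simp only [ContinuousLinearMap.comp_apply, ContinuousLinearEquiv.coe_coe] at h6
    rw [h6, hcj]
  set c : ℝ := S.r * (‖u‖ + 1)⁻¹ with hc
  have hrp := S.r_pos
  have hcpos : 0 < c := by have := norm_nonneg u; positivity
  have hcu : ‖c • u‖ < S.r := by
    rw [norm_smul, Real.norm_of_nonneg hcpos.le, hc, mul_assoc]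
    have h5 : (‖u‖ + 1)⁻¹ * ‖u‖ < 1 := by
      rw [inv_mul_lt_iff₀ (by positivity)]
      linarith
    calc S.r * ((‖u‖ + 1)⁻¹ * ‖u‖) < S.r * 1 := mul_lt_mul_of_pos_left h5 hrp
      _ = S.r := mul_one _
  have h := small (c • u) hcu α
  rw [map_smul, map_smul, ContinuousLinearMap.smul_apply, map_smul,
    ContinuousLinearMap.smul_apply, cj_smul] at h
  exact smul_right_injective _ hcpos.ne' h

/-- second order estimate of `C` -/
theorem C_bound {M₃ : ℝ} {P : V → E →L[ℝ] E' →L[ℝ] E →L[ℝ] E}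
    (hP : ∀ v u, ‖u‖ < S.r → HasFDerivAt (C v u) (P v u) 0)
    (hz : ∀ v u z, ‖u‖ < S.r → ‖z‖ < S.r → DifferentiableAt ℝ (C v u) z)
    (hl : ∀ v u z, ‖u‖ < S.r → ‖z‖ < S.r → ‖fderiv ℝ (C v u) z - fderiv ℝ (C v u) 0‖ ≤ M₃ * ‖z‖)
    (h0 : ∀ v u, ‖u‖ < S.r → C v u 0 = 1) (v : V) (u : E) (z : E') (hu : ‖u‖ < S.r) (hz1 : ‖z‖ < S.r) :
    ‖C v u z - 1 - P v u z‖ ≤ M₃ * ‖z‖ ^ 2 := by
  have hconv : Convex ℝ (closedBall (0 : E') ‖z‖) := convex_closedBall _ _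
  have hbd : ∀ w ∈ closedBall (0 : E') ‖z‖, ‖fderiv ℝ (C v u) w - P v u‖ ≤ M₃ * ‖z‖ := by
    intro w hw
    rw [mem_closedBall_zero_iff] at hw
    rw [← (hP v u hu).fderiv]
    have h1 := hl v u w hu (hw.trans_lt hz1)
    have hM : 0 ≤ M₃ ∨ M₃ < 0 := le_or_gt _ _
    rcases hM with hM | hM
    · exact h1.trans (mul_le_mul_of_nonneg_left hw hM)
    · have h2 : ‖w‖ = 0 := by
        by_contra hne
        have : 0 < ‖w‖ := lt_of_le_of_ne (norm_nonneg _) (Ne.symm hne)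
        have h3 := (norm_nonneg _).trans h1
        nlinarith
      have h4 : ‖z‖ = 0 := by
        by_contra hne
        have hpos : 0 < ‖z‖ := lt_of_le_of_ne (norm_nonneg _) (Ne.symm hne)
        have h3 := (norm_nonneg _).trans (hl v u z hu hz1)
        nlinarith
      rw [h4]
      rw [h2] at h1
      simpa using h1
  have hdiff : ∀ w ∈ closedBall (0 : E') ‖z‖, HasFDerivWithinAt (fun w => C v u w - P v u w)
      (fderiv ℝ (C v u) w - P v u) (closedBall (0 : E') ‖z‖) w := by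
    intro w hw
    rw [mem_closedBall_zero_iff] at hw
    exact ((hz v u w hu (hw.trans_lt hz1)).hasFDerivAt.sub (P v u).hasFDerivAt).hasFDerivWithinAt
  have h := hconv.norm_image_sub_le_of_norm_hasFDerivWithin_le hdiff hbd
    (mem_closedBall_self (norm_nonneg z)) (mem_closedBall_zero_iff.mpr le_rfl)
  rw [map_zero, sub_zero, h0 v u hu, sub_zero] at h
  have e : C v u z - 1 - P v u z = C v u z - P v u z - 1 := by abel
  rw [e]
  refine h.trans (le_of_eq ?_)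
  ring

/-- expansion of the holonomy `h v z u` -/
theorem h_bound {M₃ : ℝ} {P : V → E →L[ℝ] E' →L[ℝ] E →L[ℝ] E}
    (hC : ∀ v u z, ‖u‖ < S.r → ‖z‖ < S.r → ‖C v u z - 1 - P v u z‖ ≤ M₃ * ‖z‖ ^ 2)
    {h : V → E' → E → E} (h00 : ∀ v z, ‖z‖ < S.r → h v z 0 = 0)
    (hd : ∀ v z u, ‖z‖ < S.r → ‖u‖ < S.r → HasFDerivAt (h v z) (C v u z) u)
    (v : V) (z : E') (u : E) (hz : ‖z‖ < S.r) (hu : ‖u‖ < S.r) :
    ‖h v z u - u - (2 : ℝ)⁻¹ • P v u z u‖ ≤ M₃ * ‖z‖ ^ 2 * ‖u‖ := by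
  set g : ℝ → E := fun s => h v z (s • u) - s • u - (2 : ℝ)⁻¹ • (s ^ 2) • P v u z u with hg
  have hs : ∀ s ∈ Icc (0 : ℝ) 1, ‖s • u‖ < S.r := by
    intro s hs
    rw [norm_smul, Real.norm_of_nonneg hs.1]
    calc s * ‖u‖ ≤ 1 * ‖u‖ := mul_le_mul_of_nonneg_right hs.2 (norm_nonneg _)
      _ < S.r := by linarith
  have hgd : ∀ s ∈ Icc (0 : ℝ) 1, HasDerivAt g (C v (s • u) z u - u - s • P v u z u) s := by
    intro s hs'
    have h1 : HasDerivAt (fun s : ℝ => s • u) u s := by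
      simpa using (hasDerivAt_id s).smul_const u
    have h2 := (hd v z (s • u) hz (hs s hs')).comp_hasDerivAt s h1
    have h3 : HasDerivAt (fun s : ℝ => (2 : ℝ)⁻¹ • (s ^ 2) • P v u z u) (s • P v u z u) s := by
      have h4 := (((hasDerivAt_id s).pow 2).smul_const (P v u z u)).const_smul (2 : ℝ)⁻¹
      simp only [id_eq] at h4
      refine h4.congr_deriv ?_
      rw [smul_smul]
      congr 1
      norm_num
      ring
    exact (h2.sub h1).sub h3
  have hb : ∀ s ∈ Icc (0 : ℝ) 1, ‖C v (s • u) z u - u - s • P v u z u‖ ≤ M₃ * ‖z‖ ^ 2 * ‖u‖ := by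
    intro s hs'
    have e : C v (s • u) z u - u - s • P v u z u = (C v (s • u) z - 1 - P v (s • u) z) u := by
      simp
    rw [e]
    exact (ContinuousLinearMap.le_opNorm _ _).trans
      (mul_le_mul_of_nonneg_right (hC v (s • u) z (hs s hs') hz) (norm_nonneg _))
  have := (convex_Icc (0 : ℝ) 1).norm_image_sub_le_of_norm_hasDerivWithin_le
    (fun s hs' => (hgd s hs').hasDerivWithinAt) hb (left_mem_Icc.mpr zero_le_one)
    (right_mem_Icc.mpr zero_le_one)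
  simpa [hg, h00 v z hz] using this

/-- the derivative of the holonomy in `z` at `z = 0`, local form -/
theorem h_deriv_local {M₃ : ℝ} {P : V → E →L[ℝ] E' →L[ℝ] E →L[ℝ] E}
    (hC : ∀ v u z, ‖u‖ < S.r → ‖z‖ < S.r → ‖C v u z - 1 - P v u z‖ ≤ M₃ * ‖z‖ ^ 2)
    {h : V → E' → E → E} (h00 : ∀ v z, ‖z‖ < S.r → h v z 0 = 0)
    (hd : ∀ v z u, ‖z‖ < S.r → ‖u‖ < S.r → HasFDerivAt (h v z) (C v u z) u)
    (v : V) (u : E) (hu : ‖u‖ < S.r) :
    HasFDerivAt (fun z => h v z u) ((2 : ℝ)⁻¹ • (P v u).flip u) 0 := by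
  have h0 : h v 0 u = u := by
    have := h_bound hC h00 hd v 0 u (by simpa using S.r_pos) hu
    simpa [sub_eq_zero] using this
  rw [hasFDerivAt_iff_isLittleO_nhds_zero]
  refine Asymptotics.IsBigO.trans_isLittleO (g := fun z : E' => ‖z‖ ^ 2) ?_ ?_
  · refine Asymptotics.IsBigO.of_bound (|M₃| * ‖u‖) ?_
    filter_upwards [ball_mem_nhds (0 : E') S.r_pos] with z hz
    have hz' : ‖z‖ < S.r := by simpa using hz
    have hb := h_bound hC h00 hd v z u hz' hu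
    rw [zero_add, h0]
    simp only [ContinuousLinearMap.smul_apply, ContinuousLinearMap.flip_apply]
    refine hb.trans ?_
    rw [Real.norm_of_nonneg (by positivity)]
    have h1 := le_abs_self M₃
    have h2 : 0 ≤ ‖z‖ ^ 2 * ‖u‖ := by positivity
    nlinarith [mul_le_mul_of_nonneg_right h1 h2]
  · have := Asymptotics.isLittleO_norm_pow_id (E' := E') one_lt_two
    exact this

/-- the derivative of the holonomy in `z` at `z = 0`, on the whole leaf -/
theorem h_deriv {M₃ : ℝ} {P : V → E →L[ℝ] E' →L[ℝ] E →L[ℝ] E} (heq : S.Equi C)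
    (hP : ∀ v u, ‖u‖ < S.r → HasFDerivAt (C v u) (P v u) 0)
    (hC : ∀ v u z, ‖u‖ < S.r → ‖z‖ < S.r → ‖C v u z - 1 - P v u z‖ ≤ M₃ * ‖z‖ ^ 2)
    {h : V → E' → E → E} (h00 : ∀ v z, ‖z‖ < S.r → h v z 0 = 0)
    (hd : ∀ v z u, ‖z‖ < S.r → ‖u‖ < S.r → HasFDerivAt (h v z) (C v u z) u)
    (hh : ∀ v u, ∀ᶠ z in 𝓝 (0 : E'),
      h v z u = S.L v (h (S.ψ v) ((S.L' v).symm z) ((S.L v).symm u)))
    (v : V) (u : E) : HasFDerivAt (fun z => h v z u) ((2 : ℝ)⁻¹ • (P v u).flip u) 0 := by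
  have key : ∀ T : ℕ, ∀ v u, ‖u‖ * S.lam ^ T < S.r →
      HasFDerivAt (fun z => h v z u) ((2 : ℝ)⁻¹ • (P v u).flip u) 0 := by
    intro T
    induction T with
    | zero =>
      intro v u hu
      exact h_deriv_local hC h00 hd v u (by simpa using hu)
    | succ T ih =>
      intro v u hu
      have hlp := S.lam_pos
      have hu' : ‖(S.L v).symm u‖ * S.lam ^ T < S.r := by
        have h1 : ‖(S.L v).symm u‖ ≤ S.lam * ‖u‖ :=
          (((S.L v).symm : E →L[ℝ] E).le_opNorm u).trans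
            (mul_le_mul_of_nonneg_right (S.norm_L_symm v) (norm_nonneg _))
        calc ‖(S.L v).symm u‖ * S.lam ^ T ≤ S.lam * ‖u‖ * S.lam ^ T := by gcongr
          _ = ‖u‖ * S.lam ^ (T + 1) := by rw [pow_succ]; ring
          _ < S.r := hu
      have h1 := ih (S.ψ v) ((S.L v).symm u) hu'
      have h2 : HasFDerivAt (fun z => h (S.ψ v) z ((S.L v).symm u))
          ((2 : ℝ)⁻¹ • (P (S.ψ v) ((S.L v).symm u)).flip ((S.L v).symm u))
          ((S.L' v).symm (0 : E')) := by rw [map_zero]; exact h1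
      have h3 := (S.L v : E →L[ℝ] E).hasFDerivAt.comp (0 : E')
        (h2.comp (0 : E') ((S.L' v).symm : E' →L[ℝ] E').hasFDerivAt)
      have h4 := h3.congr_of_eventuallyEq (hh v u)
      refine h4.congr_fderiv ?_
      ext α
      have e := P_equi heq hP v u α
      simp only [ContinuousLinearMap.comp_apply, ContinuousLinearMap.smul_apply,
        ContinuousLinearMap.flip_apply, ContinuousLinearEquiv.coe_coe, map_smul]
      rw [e]
      simp [cj]
  obtain ⟨T, hT⟩ : ∃ T : ℕ, ‖u‖ * S.lam ^ T < S.r := by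
    have h1 : Tendsto (fun T : ℕ => ‖u‖ * S.lam ^ T) atTop (𝓝 0) := by
      simpa using (tendsto_pow_atTop_nhds_zero_of_lt_one S.lam_pos.le S.lam_lt_one).const_mul ‖u‖
    exact (h1.eventually_lt_const S.r_pos).exists
  exact key T v u hT

end Cocycle

end Sep

end Vale.Agent.P207.H267.QV
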